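import Vale.Agent.P032.Words.Tab

/-!
# Words on a circle: tables with the directions of the ends

Letters `0 = e`, `1 = f`, `2 = A`, `3 = C`.  Direction `0`: the exact arc (`A` or `C`) is after the end,
direction `1`: it is before the end.
-/

namespace Vale.Agent.P032.Words.Dir

/-- the moves `f → C` (`d = 0`) and `C → f` (`d = 1`) at position `k` on components -/
def rqd (d k : ℕ) : ℕ := match d, k with
  | 0, 0 => 1231312987205154696614323055338426452195519034068128901985437867998551540650125283758839623934048558750951708557314
  | 0, 1 => 645562469522314283059673251307725338792332214294336569583368113161740856677148866810009185355861486049455738815984435201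
  | 0, 2 => 7957186959657306801797981804244833519845812153922355723671289842110147227232838445170704
  | 0, 3 => 559936719541210033109714780426637169315761955504056986355734514328068047421120147567981975770383777793
  | 0, 4 => 5043610707225198005106206847413646296658808284292928594210330818746569377577223258376978325316680541945688725452227584
  | 0, _ => 2348551541752802982069737356762439667553769693676361850595114806410131784529367841547094647786382240799260673
  | _, 0 => 645562469522020715236826522154239153679790766416610254454251170001134243845629531594295356322982883954886870446636007424
  | _, 1 => 1539140867046663718747786976611012551840678932060854458555204867710165777053889513631833597693876900145733203656709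
  | _, 2 => 18971406657915589120312279569866693900538058375275191566492746597683876586382688256
  | _, 3 => 5043687664286898327001272152411855913199762461243237576887297814265018599742743207738160214556166603644552230729679361
  | _, 4 => 559936252294046919829509851085336116582497889732902820130666761820294339611700954512465266870329540608
  | _, _ => 75325232797267291171599538138467516399642740119493272666113

/-- component after a move `e → A` (`d = 0`), `A → e` (`d = 1`) at position 0, component of the rotated
hexagon before the move -/
def vrd (d : ℕ) : ℕ := match d with
  | 0 => 3885337784453224988903721484371703086363630729775815291857048209540691562029968793856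
  | _ => 279969160765743487260388705638561743154225766392316657701722729246517823355467267605507858889166561280

def chkQd : Bool :=
  (List.range 4096).all fun n => !legN n || (List.range 6).all fun k =>
    (!(dg n k == 1) || !legN (upd n k 3) || relN (rqd 0 k) (cN T2 n) (cN T2 (upd n k 3))) &&
    (!(dg n k == 3) || !legN (upd n k 1) || relN (rqd 1 k) (cN T2 n) (cN T2 (upd n k 1)))

def chkVd : Bool :=
  (List.range 4096).all fun n => !legN n ||
    ((!(dg n 0 == 0) || !legN (upd n 0 2) || relN (vrd 0) (cN T2 (upd n 0 2)) (cN T2 (rotN n))) &&
     (!(dg n 0 == 2) || !legN (upd n 0 0) || relN (vrd 1) (cN T2 (upd n 0 0)) (cN T2 (rotN n))))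

/-- the possible positions of the two ends `C|f` relative to the end `A|e`, different directions -/
def patd (dV dk dl k l : ℕ) : Bool :=
  dk == dl || (dk == 0 && dl == 1 && ((dV == 1 && k == 3 && l == 1) || (dV == 0 && k == 4 && l == 2)))

def chkPatd : Bool :=
  (List.range 2).all fun dV => (List.range 20).all fun a => (List.range 20).all fun d =>
    !relN (vrd dV) a d || (List.range 2).all fun dk => (List.range 6).all fun k =>
      (List.range 20).all fun b => !relN (rqd dk k) a b || (List.range 2).all fun dl =>
        (List.range 6).all fun l => !relN (rqd dl l) b d || patd dV dk dl k l

theorem chkQd_true : chkQd = true := by decide +kernel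
theorem chkVd_true : chkVd = true := by decide +kernel
theorem chkPatd_true : chkPatd = true := by decide +kernel

end Vale.Agent.P032.Words.Dir
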