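import Vale.Agent.P032.Words.H349.TieSym
import Vale.Agent.P032.Words.H358.DirTab

/-!
# Words on a circle: the directions of the two ends `f|C` of a single end `e|A`

`L3dir`: if the two ends have different directions, then they are at two special positions.
Letters `0 = e`, `1 = f`, `2 = A`, `3 = C`; angles in units of 60 degrees.
-/

namespace Vale.Agent.P032.Words.Dir

open Set Filter Topology Tie

/-- the letter before the end `f|C` -/
def qa (d : Bool) : Fin 4 := cond d 3 1
/-- the letter after the end `f|C` -/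
def qb (d : Bool) : Fin 4 := cond d 1 3
/-- the letter before the end `e|A` -/
def va (d : Bool) : Fin 4 := cond d 2 0
/-- the letter after the end `e|A` -/
def vb (d : Bool) : Fin 4 := cond d 0 2

/-- moves `f|C` with directions at the positions of a list -/
def Rch : List (Fin 6 × Bool) → ℕ → ℕ → Prop
  | [], p, q => p = q
  | k :: ks, p, q => ∃ m, m < 20 ∧ relN (rqd k.2.toNat k.1.val) p m = true ∧ Rch ks m q

theorem Rch.append : ∀ {L L' : List (Fin 6 × Bool)} {p q r : ℕ}, Rch L p q → Rch L' q r →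
    Rch (L ++ L') p r
  | [], L', p, q, r, h, h' => by rw [show p = q from h]; exact h'
  | k :: ks, L', p, q, r, ⟨m, h0, h1, h2⟩, h' => ⟨m, h0, h1, Rch.append h2 h'⟩

theorem rqd_step {h : Hx} {k : Fin 6} {d : Bool} (h1 : Leg4 h)
    (h2 : Leg4 (Function.update h k (qb d))) (hk : h k = qa d) :
    relN (rqd d.toNat k.val) (cp h) (cp (Function.update h k (qb d))) = true := by
  have c := all_range chkQd_true (code_lt h)
  rw [legN_code h1, Bool.not_true, Bool.false_or] at c
  have e := all_range c k.isLt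
  have e2 := legN_code h2
  rw [code_update] at e2
  unfold cp
  rw [code_update]
  have e1 := dg_code h k
  rw [hk] at e1
  cases d
  · have e1' : dg (code h) k.val = 1 := e1
    have e2' : legN (upd (code h) k.val 3) = true := e2
    have := (Bool.and_eq_true _ _ ▸ e).1
    rw [e1', e2'] at this
    simpa [qb] using this
  · have e1' : dg (code h) k.val = 3 := e1
    have e2' : legN (upd (code h) k.val 1) = true := e2
    have := (Bool.and_eq_true _ _ ▸ e).2
    rw [e1', e2'] at this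
    simpa [qb] using this

theorem vrd_step {h : Hx} {d : Bool} (h1 : Leg4 h)
    (h2 : Leg4 (Function.update h 0 (vb d))) (hk : h 0 = va d) :
    relN (vrd d.toNat) (cp (Function.update h 0 (vb d))) (cp (rot h)) = true := by
  have c := all_range chkVd_true (code_lt h)
  rw [legN_code h1, Bool.not_true, Bool.false_or] at c
  have e2 := legN_code h2
  rw [code_update] at e2
  unfold cp
  rw [code_update, code_rot]
  have e1 := dg_code h 0
  rw [hk] at e1
  cases d
  · have e1' : dg (code h) 0 = 0 := e1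
    have e2' : legN (upd (code h) 0 2) = true := e2
    have := (Bool.and_eq_true _ _ ▸ c).1
    rw [e1', e2'] at this
    simpa [vb] using this
  · have e1' : dg (code h) 0 = 2 := e1
    have e2' : legN (upd (code h) 0 0) = true := e2
    have := (Bool.and_eq_true _ _ ▸ c).2
    rw [e1', e2'] at this
    simpa [vb] using this

theorem rch_list {M : Finset (Fin 6)} {a b : Fin 6 → Fin 4} {δ : Fin 6 → Bool}
    {h : Finset (Fin 6) → Hx} (hleg : ∀ S, Leg4 (h S))
    (hins : ∀ S, ∀ k ∈ M, k ∉ S → h S k = a k ∧ h (insert k S) = Function.update (h S) k (b k)) :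
    ∀ (L : List (Fin 6)) (S : Finset (Fin 6)), L.Nodup → (∀ k ∈ L, k ∈ M ∧ k ∉ S ∧
      a k = qa (δ k) ∧ b k = qb (δ k)) →
      Rch (L.map fun k => (k, δ k)) (cp (h S)) (cp (h (L.foldl (fun S k => insert k S) S)))
  | [], S, _, _ => rfl
  | k :: ks, S, hn, hL => by
    obtain ⟨h1, h2, h3, h4⟩ := hL k (by simp)
    obtain ⟨e1, e2⟩ := hins S k h1 h2
    rw [h4] at e2
    refine ⟨cp (h (insert k S)), cp_lt (hleg _), ?_, ?_⟩
    · rw [e2]
      exact rqd_step (hleg S) (e2 ▸ hleg _) (e1.trans h3)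
    · refine rch_list hleg hins ks (insert k S) (List.nodup_cons.mp hn).2 ?_
      intro j hj
      obtain ⟨g1, g2, g3⟩ := hL j (List.mem_cons_of_mem _ hj)
      refine ⟨g1, ?_, g3⟩
      rw [Finset.mem_insert]
      rintro (h' | h')
      · subst h'; exact (List.nodup_cons.mp hn).1 hj
      · exact g2 h'

theorem ty_q (d : Bool) : Ty (qa d) (qb d) := by
  cases d
  · exact Or.inr (Or.inr (Or.inl ⟨rfl, rfl⟩))
  · exact Or.inr (Or.inr (Or.inr ⟨rfl, rfl⟩))

theorem ty_v (d : Bool) : Ty (va d) (vb d) := by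
  cases d
  · exact Or.inl ⟨rfl, rfl⟩
  · exact Or.inr (Or.inl ⟨rfl, rfl⟩)

/-- Passing a point with marks of type `f|C` at the positions of `L`. -/
theorem jumpQ {X : Fin 4 → Set ℝ} (w : RawT X) {u : ℝ} {L : List (Fin 6)} {δ : Fin 6 → Bool}
    (hL : L.Nodup) (hM : ∀ k ∈ L, Mark X (qa (δ k)) (qb (δ k)) (u + (k.val : ℝ)))
    (hN : ∀ k ∉ L, ∀ x y, u + (k.val : ℝ) ∈ X x → u + (k.val : ℝ) ∈ X y → Fr x y)
    {p : ℕ} (hp : ∀ᶠ v in 𝓝[<] u, cp (stT X v) = p) :
    ∃ q, (∀ᶠ v in 𝓝[>] u, cp (stT X v) = q) ∧ Rch (L.map fun k => (k, δ k)) p q := by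
  classical
  obtain ⟨h, hleg, hins, hl, hr, -⟩ := w.jump (free := Fr) (cmp := cp) cp_step Fr.refl L.toFinset
    (fun k => qa (δ k)) (fun k => qb (δ k))
    (fun k hk => hM k (List.mem_toFinset.mp hk)) (fun k _ => ty_q _)
    (fun k hk => hN k fun h' => hk (List.mem_toFinset.mpr h'))
  refine ⟨_, hr, ?_⟩
  have e : p = cp (h ∅) := by
    obtain ⟨v, h1, h2⟩ := (hp.and hl).exists
    rw [← h1, h2]
  have := rch_list (δ := δ) hleg hins L ∅ hL (fun k hk => ⟨List.mem_toFinset.mpr hk,
    Finset.notMem_empty k, rfl, rfl⟩)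
  rw [foldl_insert, Finset.empty_union] at this
  rw [e]
  exact this

/-- Passing the mark `V` of type `e|A` and marks of type `f|C` at the positions of `L`. -/
theorem jumpV {X : Fin 4 → Set ℝ} (w : RawT X) {u : ℝ} {L : List (Fin 6)} {δ : Fin 6 → Bool}
    {dV : Bool} (hL : L.Nodup)
    (hL0 : (0 : Fin 6) ∉ L) (hV : Mark X (va dV) (vb dV) u)
    (hM : ∀ k ∈ L, Mark X (qa (δ k)) (qb (δ k)) (u + (k.val : ℝ)))
    (hN : ∀ k ∉ L, k ≠ 0 → ∀ x y, u + (k.val : ℝ) ∈ X x → u + (k.val : ℝ) ∈ X y → Fr x y) :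
    ∃ p q F, (∀ᶠ v in 𝓝[>] u, cp (stT X v) = q) ∧ (∀ᶠ v in 𝓝[<] (u + 1), cp (stT X v) = F) ∧
      p < 20 ∧ F < 20 ∧ relN (vrd dV.toNat) p F = true ∧ Rch (L.map fun k => (k, δ k)) p q := by
  classical
  have e0 : u + ((0 : Fin 6).val : ℝ) = u := by simp
  obtain ⟨h, hleg, hins, hl, hr, hF⟩ := w.jump (free := Fr) (cmp := cp) cp_step Fr.refl
    (insert 0 L.toFinset)
    (fun k => if k = 0 then va dV else qa (δ k)) (fun k => if k = 0 then vb dV else qb (δ k))
    (by
      intro k hk
      by_cases h0 : k = 0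
      · subst h0
        rw [e0, if_pos rfl, if_pos rfl]
        exact hV
      · rw [if_neg h0, if_neg h0]
        rcases Finset.mem_insert.mp hk with h' | h'
        · exact absurd h' h0
        · exact hM k (List.mem_toFinset.mp h'))
    (by
      intro k _
      by_cases h0 : k = 0
      · rw [if_pos h0, if_pos h0]
        exact ty_v _
      · rw [if_neg h0, if_neg h0]
        exact ty_q _)
    (by
      intro k hk
      rw [Finset.mem_insert, not_or, List.mem_toFinset] at hk
      exact hN k hk.2 hk.1)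
  obtain ⟨e1, e2⟩ := hins ∅ 0 (Finset.mem_insert_self _ _) (Finset.notMem_empty _)
  rw [if_pos rfl] at e1 e2
  refine ⟨cp (h (insert 0 ∅)), _, _, hr, hF, cp_lt (hleg _), ?_, ?_, ?_⟩
  · -- legality of the rotated hexagon
    have : Leg4 (rot (h ∅)) := by
      obtain ⟨ha, hb⟩ := hleg ∅
      refine ⟨fun k => ha (k + 1), fun k => ?_⟩
      have := hb (k + 1)
      unfold rot
      have e : k + 3 + 1 = k + 1 + 3 := add_right_comm k 3 1
      rw [e]
      exact this
    exact cp_lt this
  · have hl2 := hleg (insert 0 ∅)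
    rw [e2] at hl2 ⊢
    exact vrd_step (hleg ∅) hl2 e1
  · have := rch_list (δ := δ) hleg hins L (insert 0 ∅) hL (fun k hk => by
      have hk0 : k ≠ 0 := fun h' => hL0 (h' ▸ hk)
      refine ⟨Finset.mem_insert_of_mem (List.mem_toFinset.mpr hk), ?_, ?_, ?_⟩
      · rw [Finset.mem_insert, not_or]
        exact ⟨hk0, Finset.notMem_empty k⟩
      · rw [if_neg hk0]
      · rw [if_neg hk0])
    rw [foldl_insert] at this
    have e : (insert 0 ∅ : Finset (Fin 6)) ∪ L.toFinset = insert 0 L.toFinset := by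
      ext j; simp [Finset.mem_insert]
    rw [e] at this
    exact this

/-- the final table -/
theorem patd_of {p F : ℕ} {dV dk dl : Bool} (hp : p < 20) (hF : F < 20)
    (h : relN (vrd dV.toNat) p F = true) {k l : Fin 6} (hr : Rch [(k, dk), (l, dl)] p F) :
    patd dV.toNat dk.toNat dl.toNat k.val l.val = true := by
  obtain ⟨m, hm, h1, m2, hm2, h2, h3⟩ := hr
  have h3' : m2 = F := h3
  subst h3'
  have hb : ∀ b : Bool, b.toNat < 2 := by intro b; cases b <;> decide
  have a := all_range (all_range (all_range chkPatd_true (hb dV)) hp) hF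
  rw [h, Bool.not_true, Bool.false_or] at a
  have c := all_range (all_range (all_range a (hb dk)) k.isLt) hm
  rw [h1, Bool.not_true, Bool.false_or] at c
  have e := all_range (all_range c (hb dl)) l.isLt
  rw [h2, Bool.not_true, Bool.false_or] at e
  exact e

variable {X : Fin 4 → Set ℝ}

theorem vmark {d : Bool} {V : ℝ} (h : Mark X (va d) (vb d) V) : VMark X V := by
  cases d
  · exact Or.inl h
  · exact Or.inr h

theorem qmark {d : Bool} {V : ℝ} (h : Mark X (qa d) (qb d) V) : QMark X V := by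
  cases d
  · exact Or.inl h
  · exact Or.inr h

/-- The positions and directions of the two ends `f|C` relative to the single end `e|A`. -/
theorem L3aux (w : RawT X) (h23 : ∀ u, u ∈ X 2 → u ∉ X 3) {V : ℝ} {dV dk dl : Bool}
    (hV : Mark X (va dV) (vb dV) V)
    (hVu : ∀ u, u ∈ X 0 → u ∈ X 2 → ∃ n : ℤ, u = V + 6 * n)
    {k l : Fin 6} {r s : ℝ} (hr0 : 0 ≤ r) (hrs : r ≤ s) (hs1 : s < 1)
    (hQ : Mark X (qa dk) (qb dk) (V + r + (k.val : ℝ)))
    (hQ' : Mark X (qa dl) (qb dl) (V + s + (l.val : ℝ)))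
    (hne : ¬ (r = s ∧ k = l))
    (hQu : ∀ u, u ∈ X 1 → u ∈ X 3 → ∃ n : ℤ, u = V + r + (k.val : ℝ) + 6 * n ∨
      u = V + s + (l.val : ℝ) + 6 * n) :
    patd dV.toNat dk.toNat dl.toNat k.val l.val = true := by
  have hr1 : r < 1 := lt_of_le_of_lt hrs hs1
  have hs0 : 0 ≤ s := hr0.trans hrs
  have hfree : ∀ (t : ℝ), 0 ≤ t → t < 1 → ∀ (j : Fin 6) (x y : Fin 4), V + t + (j.val : ℝ) ∈ X x →
      V + t + (j.val : ℝ) ∈ X y → ¬ (t = 0 ∧ j = 0) → ¬ (t = r ∧ j = k) → ¬ (t = s ∧ j = l) →
      Fr x y := by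
    intro t ht0 ht1 j x y hx hy n1 n2 n3
    rcases nonfree h23 hx hy with h | ⟨h0, h2⟩ | ⟨h1, h3⟩
    · exact h
    · obtain ⟨n, hn⟩ := hVu _ h0 h2
      have : t + (j.val : ℝ) = 0 + ((0 : Fin 6).val : ℝ) + 6 * (n : ℝ) := by
        have : (((0 : Fin 6).val : ℕ) : ℝ) = 0 := by simp
        rw [this]; linarith
      exact absurd (eq_of_mod ht0 ht1 le_rfl one_pos this) n1
    · obtain ⟨n, hn | hn⟩ := hQu _ h1 h3
      · exact absurd (eq_of_mod ht0 ht1 hr0 hr1 (by linarith)) n2
      · exact absurd (eq_of_mod ht0 ht1 hs0 hs1 (by linarith)) n3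
  -- free on open intervals
  have hio : ∀ a b : ℝ, 0 ≤ a → b ≤ 1 → (∀ t ∈ Ioo a b, t ≠ r ∧ t ≠ s) →
      ∀ u ∈ Ioo (V + a) (V + b), ∀ j : Fin 6, ∀ x y, u + (j.val : ℝ) ∈ X x →
      u + (j.val : ℝ) ∈ X y → Fr x y := by
    intro a b ha hb hab u hu j x y hx hy
    have hu1 : a < u - V := by linarith [hu.1]
    have hu2 : u - V < b := by linarith [hu.2]
    have hn := hab (u - V) ⟨hu1, hu2⟩
    have e : V + (u - V) = u := by ring
    refine hfree (u - V) (by linarith) (by linarith) j x y ?_ ?_ ?_ ?_ ?_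
    · rw [e]; exact hx
    · rw [e]; exact hy
    · rintro ⟨h1, -⟩; linarith
    · rintro ⟨h1, -⟩; exact hn.1 h1
    · rintro ⟨h1, -⟩; exact hn.2 h1
  have hV0 : V ∈ X 0 := by rcases vmark hV with h | h; exacts [h.mem_a, h.mem_b]
  have hno : ∀ (t : ℝ) (j : Fin 6), QMark X (V + t + (j.val : ℝ)) → ¬ (t = 0 ∧ j = 0) := by
    rintro t j hj ⟨h1, h2⟩
    subst h2
    have e : V + t + (((0 : Fin 6).val : ℕ) : ℝ) = V := by rw [h1]; simp
    rw [e] at hj
    rcases hj with h | h <;> rcases h.only _ hV0 with h' | h' <;> exact absurd h' (by decide)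
  have hk0 := hno r k (qmark hQ)
  have hl0 := hno s l (qmark hQ')
  have fin : ∀ {a : ℝ} {q F : ℕ}, 0 ≤ a → a < 1 → (∀ t ∈ Ioo a 1, t ≠ r ∧ t ≠ s) →
      (∀ᶠ v in 𝓝[>] (V + a), cp (stT X v) = q) → (∀ᶠ v in 𝓝[<] (V + 1), cp (stT X v) = F) →
      q = F := by
    intro a q F ha ha1 hh hq hF
    exact w.seg (free := Fr) (cmp := cp) cp_step Fr.refl (a := V + a) (b := V + 1) (by linarith)
      (hio a 1 ha le_rfl hh) hq hF
  rcases eq_or_lt_of_le hr0 with h0 | h0
  · have hkne : k ≠ 0 := fun h => hk0 ⟨h0.symm, h⟩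
    rcases eq_or_lt_of_le hs0 with g0 | g0
    · -- both at time 0
      have hlne : l ≠ 0 := fun h => hl0 ⟨g0.symm, h⟩
      have hkl : k ≠ l := fun h => hne ⟨h0.symm.trans g0, h⟩
      obtain ⟨p, q, F, hq, hF, hp20, hF20, hvr, hre⟩ := jumpV (L := [k, l])
        (δ := fun j => if j = k then dk else dl) w (u := V)
        (by simp [hkl])
        (by
          simp only [List.mem_cons, List.not_mem_nil, or_false, not_or]
          exact ⟨hkne.symm, hlne.symm⟩) hV
        (by
          intro j hj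
          simp only [List.mem_cons, List.not_mem_nil, or_false] at hj
          rcases hj with rfl | rfl
          · rw [← h0, add_zero] at hQ; simpa using hQ
          · rw [← g0, add_zero] at hQ'; simpa [hkl.symm] using hQ')
        (by
          intro j hj hj0 x y hx hy
          simp only [List.mem_cons, List.not_mem_nil, or_false, not_or] at hj
          exact hfree 0 le_rfl one_pos j x y (by simpa using hx) (by simpa using hy)
            (fun h => hj0 h.2) (fun h => hj.1 h.2) (fun h => hj.2 h.2))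
      have := fin (a := 0) le_rfl one_pos (fun t ht => ⟨by rw [← h0]; exact ht.1.ne',
        by rw [← g0]; exact ht.1.ne'⟩) (by rw [add_zero]; exact hq) hF
      subst this
      simp only [List.map_cons, List.map_nil, if_true, if_neg hkl.symm] at hre
      exact patd_of hp20 hF20 hvr hre
    · obtain ⟨p, q, F, hq, hF, hp20, hF20, hvr, hre⟩ := jumpV (L := [k]) (δ := fun _ => dk) w
        (u := V) (by simp)
        (by
          simp only [List.mem_cons, List.not_mem_nil, or_false]
          exact hkne.symm) hV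
        (by
          intro j hj
          simp only [List.mem_cons, List.not_mem_nil, or_false] at hj
          subst hj
          rw [← h0, add_zero] at hQ; exact hQ)
        (by
          intro j hj hj0 x y hx hy
          simp only [List.mem_cons, List.not_mem_nil, or_false] at hj
          exact hfree 0 le_rfl one_pos j x y (by simpa using hx) (by simpa using hy)
            (fun h => hj0 h.2) (fun h => hj h.2) (fun h => g0.ne h.1))
      have hl := Tie.left_of_right w (a := V + 0) (b := V + s) (by linarith)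
        (hio 0 s le_rfl hs1.le (fun t ht => ⟨by rw [← h0]; exact ht.1.ne', ht.2.ne⟩))
        (by rw [add_zero]; exact hq)
      obtain ⟨q2, hq2, hre2⟩ := jumpQ (L := [l]) (δ := fun _ => dl) w (by simp)
        (by intro j hj; rw [List.mem_singleton] at hj; subst hj; exact hQ')
        (by
          intro j hj x y hx hy
          rw [List.mem_singleton] at hj
          exact hfree s hs0 hs1 j x y hx hy (fun h => g0.ne' h.1)
            (fun h => g0.ne' (h.1.trans h0.symm)) (fun h => hj h.2)) hl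
      have := fin (a := s) hs0 hs1 (fun t ht => ⟨by rw [← h0]; exact (g0.trans ht.1).ne',
        ht.1.ne'⟩) hq2 hF
      subst this
      exact patd_of hp20 hF20 hvr (Rch.append hre hre2)
  · have g0 : 0 < s := lt_of_lt_of_le h0 hrs
    obtain ⟨p, q, F, hq, hF, hp20, hF20, hvr, hre⟩ := jumpV (L := []) (δ := fun _ => dk) w
      (u := V) (by simp)
      (by simp) hV (by intro j hj; simp at hj)
      (by
        intro j _ hj0 x y hx hy
        exact hfree 0 le_rfl one_pos j x y (by simpa using hx) (by simpa using hy)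
          (fun h => hj0 h.2) (fun h => h0.ne h.1) (fun h => g0.ne h.1))
    have hpq : p = q := hre
    have hl := Tie.left_of_right w (a := V + 0) (b := V + r) (by linarith)
      (hio 0 r le_rfl hr1.le (fun t ht => ⟨ht.2.ne, (lt_of_lt_of_le ht.2 hrs).ne⟩))
      (by rw [add_zero]; exact hq)
    rcases eq_or_lt_of_le hrs with e | e
    · -- tie at `r = s`
      subst e
      have hkl : k ≠ l := fun h => hne ⟨rfl, h⟩
      obtain ⟨q2, hq2, hre2⟩ := jumpQ (L := [k, l]) (δ := fun j => if j = k then dk else dl) w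
        (by simp [hkl])
        (by
          intro j hj
          simp only [List.mem_cons, List.not_mem_nil, or_false] at hj
          rcases hj with rfl | rfl
          · simpa using hQ
          · simpa [hkl.symm] using hQ')
        (by
          intro j hj x y hx hy
          simp only [List.mem_cons, List.not_mem_nil, or_false, not_or] at hj
          exact hfree r hr0 hr1 j x y hx hy (fun h => h0.ne' h.1)
            (fun h => hj.1 h.2) (fun h => hj.2 h.2)) hl
      have := fin (a := r) hr0 hr1 (fun t ht => ⟨ht.1.ne', ht.1.ne'⟩) hq2 hF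
      subst this
      subst hpq
      simp only [List.map_cons, List.map_nil, if_true, if_neg hkl.symm] at hre2
      exact patd_of hp20 hF20 hvr hre2
    · obtain ⟨q2, hq2, hre2⟩ := jumpQ (L := [k]) (δ := fun _ => dk) w (by simp)
        (by intro j hj; rw [List.mem_singleton] at hj; subst hj; exact hQ)
        (by
          intro j hj x y hx hy
          rw [List.mem_singleton] at hj
          exact hfree r hr0 hr1 j x y hx hy (fun h => h0.ne' h.1)
            (fun h => hj h.2) (fun h => e.ne h.1)) hl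
      have hl2 := Tie.left_of_right w (a := V + r) (b := V + s) (by linarith)
        (hio r s hr0 hs1.le (fun t ht => ⟨ht.1.ne', ht.2.ne⟩)) hq2
      obtain ⟨q3, hq3, hre3⟩ := jumpQ (L := [l]) (δ := fun _ => dl) w (by simp)
        (by intro j hj; rw [List.mem_singleton] at hj; subst hj; exact hQ')
        (by
          intro j hj x y hx hy
          rw [List.mem_singleton] at hj
          exact hfree s hs0 hs1 j x y hx hy (fun h => g0.ne' h.1)
            (fun h => e.ne' h.1) (fun h => hj h.2)) hl2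
      have := fin (a := s) hs0 hs1 (fun t ht => ⟨(e.trans ht.1).ne', ht.1.ne'⟩) hq3 hF
      subst this
      subst hpq
      exact patd_of hp20 hF20 hvr (Rch.append hre2 hre3)

/-- marks are periodic -/
theorem mark_add (R : RawT X) {x y : Fin 4} {Q : ℝ} (hh : Mark X x y Q) (m : ℤ) :
    Mark X x y (Q + 6 * (m : ℝ)) := by
  have perZ : ∀ (n : ℤ) (l : Fin 4) (u : ℝ), u + 6 * (n : ℝ) ∈ X l ↔ u ∈ X l := by
    intro n l
    induction n with
    | zero => intro u; simp
    | succ i ih =>
      intro u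
      have : u + 6 * (((i : ℤ) + 1 : ℤ) : ℝ) = (u + 6 * ((i : ℤ) : ℝ)) + 6 := by push_cast; ring
      rw [this, R.per, ih]
    | pred i ih =>
      intro u
      have : u + 6 * ((-(i : ℤ) - 1 : ℤ) : ℝ) + 6 = u + 6 * ((-(i : ℤ) : ℤ) : ℝ) := by
        push_cast; ring
      rw [← R.per, this, ih]
  refine ⟨(perZ m _ _).mpr hh.mem_a, (perZ m _ _).mpr hh.mem_b,
    fun l hl => hh.only l ((perZ m _ _).mp hl), ?_, ?_⟩
  · have h1 := tendsto_add_left (Q + 6 * (m : ℝ)) (-(6 * (m : ℝ)))
    have e : Q + 6 * (m : ℝ) + -(6 * (m : ℝ)) = Q := by ring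
    rw [e] at h1
    filter_upwards [h1.eventually hh.left] with v hv hv'
    refine hv ((perZ m _ _).mp ?_)
    have e2 : v + -(6 * (m : ℝ)) + 6 * (m : ℝ) = v := by ring
    rw [e2]; exact hv'
  · have h1 := tendsto_add_right (Q + 6 * (m : ℝ)) (-(6 * (m : ℝ)))
    have e : Q + 6 * (m : ℝ) + -(6 * (m : ℝ)) = Q := by ring
    rw [e] at h1
    filter_upwards [h1.eventually hh.right] with v hv hv'
    refine hv ((perZ m _ _).mp ?_)
    have e2 : v + -(6 * (m : ℝ)) + 6 * (m : ℝ) = v := by ring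
    rw [e2]; exact hv'

/-- a real number as time and position after `V` -/
theorem exists_pos (V Q : ℝ) : ∃ (n : ℤ) (k : Fin 6) (r : ℝ), 0 ≤ r ∧ r < 1 ∧
    V + r + (k.val : ℝ) = Q + 6 * (n : ℝ) := by
  set n : ℤ := -⌊(Q - V) / 6⌋ with hn
  set t := Q + 6 * (n : ℝ) - V with ht
  have h0 : 0 ≤ t := by
    have := Int.floor_le ((Q - V) / 6)
    rw [ht, hn]; push_cast; linarith
  have h6 : t < 6 := by
    have := Int.lt_floor_add_one ((Q - V) / 6)
    rw [ht, hn]; push_cast; linarith
  have hf0 : 0 ≤ ⌊t⌋ := Int.floor_nonneg.mpr h0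
  have hf6 : ⌊t⌋ < 6 := by rw [Int.floor_lt]; push_cast; linarith
  refine ⟨n, ⟨⌊t⌋.toNat, by omega⟩, Int.fract t, Int.fract_nonneg t, Int.fract_lt_one t, ?_⟩
  have e : ((⌊t⌋.toNat : ℕ) : ℝ) = (⌊t⌋ : ℝ) := by
    have : ((⌊t⌋.toNat : ℤ)) = ⌊t⌋ := Int.toNat_of_nonneg hf0
    exact_mod_cast congrArg (Int.cast : ℤ → ℝ) this
  show V + Int.fract t + ((⌊t⌋.toNat : ℕ) : ℝ) = Q + 6 * (n : ℝ)
  rw [e]
  have := Int.floor_add_fract t
  linarith

/-- **the directions**: a single end `V` of type `e|A` (`dV = true`: `A` is before `V`), exactly two ends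
of type `f|C`, at `Q` the arc `C` is after the end, at `Q'` it is before the end: only two positions. -/
theorem L3dir (R : RawT X) {V Q Q' : ℝ} {dV : Bool} (hV : Mark X (va dV) (vb dV) V)
    (hVu : ∀ u, u ∈ X 0 → u ∈ X 2 → ∃ n : ℤ, u = V + 6 * n)
    (hQ : Mark X 1 3 Q) (hQ' : Mark X 3 1 Q')
    (hQu : ∀ u, u ∈ X 1 → u ∈ X 3 → ∃ n : ℤ, u = Q + 6 * n ∨ u = Q' + 6 * n) :
    ∃ n m : ℤ, (dV = true ∧ V + 3 ≤ Q + 6 * (n : ℝ) ∧ Q + 6 * (n : ℝ) < V + 4 ∧
        V + 1 ≤ Q' + 6 * (m : ℝ) ∧ Q' + 6 * (m : ℝ) < V + 2) ∨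
      (dV = false ∧ V + 4 ≤ Q + 6 * (n : ℝ) ∧ Q + 6 * (n : ℝ) < V + 5 ∧
        V + 2 ≤ Q' + 6 * (m : ℝ) ∧ Q' + 6 * (m : ℝ) < V + 3) := by
  obtain ⟨n, k, r, hr0, hr1, hk⟩ := exists_pos V Q
  obtain ⟨m, l, s, hs0, hs1, hl⟩ := exists_pos V Q'
  have hQ2 : Mark X (qa false) (qb false) (V + r + (k.val : ℝ)) := by
    rw [hk]; exact mark_add R hQ n
  have hQ2' : Mark X (qa true) (qb true) (V + s + (l.val : ℝ)) := by
    rw [hl]; exact mark_add R hQ' m
  have hQu2 : ∀ u, u ∈ X 1 → u ∈ X 3 → ∃ n' : ℤ, u = V + r + (k.val : ℝ) + 6 * n' ∨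
      u = V + s + (l.val : ℝ) + 6 * n' := by
    intro u h1 h3
    obtain ⟨i, hi | hi⟩ := hQu u h1 h3
    · refine ⟨i - n, Or.inl ?_⟩
      rw [hk, hi]; push_cast; ring
    · refine ⟨i - m, Or.inr ?_⟩
      rw [hl, hi]; push_cast; ring
  have hne : ¬ (r = s ∧ k = l) := by
    rintro ⟨rfl, rfl⟩
    have h1 := hQ2.right
    have h2 := hQ2'.right
    have h3 := (h1.and h2).exists
    obtain ⟨u, hu1, hu2⟩ := h3
    -- all letters are excluded near the mark on the right
    have h4 : ∀ᶠ u in 𝓝[>] (V + r + (k.val : ℝ)), ∀ x : Fin 4, u ∈ X x → x = 1 ∨ x = 3 := by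
      rw [eventually_all]
      intro x
      by_cases hx : V + r + (k.val : ℝ) ∈ X x
      · refine Eventually.of_forall fun u _ => ?_
        rcases hQ2.only x hx with h5 | h5
        · exact Or.inl h5
        · exact Or.inr h5
      · have := (R.closed x).isOpen_compl.mem_nhds hx
        filter_upwards [nhdsWithin_le_nhds this] with u hu hu'
        exact absurd hu' hu
    obtain ⟨u, hu1, hu2, hu3⟩ := (h1.and (h2.and h4)).exists
    obtain ⟨x, hx⟩ := R.cover u
    rcases hu3 x hx with h5 | h5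
    · subst h5; exact hu1 hx
    · subst h5; exact hu2 hx
  have hpn : patd dV.toNat 0 1 k.val l.val = true → r ≤ s →
      (dV = true ∧ k.val = 3 ∧ l.val = 1) ∨ (dV = false ∧ k.val = 4 ∧ l.val = 2) := by
    intro h _
    unfold patd at h
    cases dV <;> simp at h ⊢ <;> exact h
  rcases le_total r s with hrs | hrs
  · have h1 := L3aux R R.ac hV hVu hr0 hrs hs1 hQ2 hQ2' hne hQu2
    rcases hpn h1 hrs with ⟨h2, h3, h4⟩ | ⟨h2, h3, h4⟩
    · refine ⟨n, m, Or.inl ⟨h2, ?_⟩⟩
      rw [h3] at hk; rw [h4] at hl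
      push_cast at hk hl
      refine ⟨?_, ?_, ?_, ?_⟩ <;> linarith
    · refine ⟨n, m, Or.inr ⟨h2, ?_⟩⟩
      rw [h3] at hk; rw [h4] at hl
      push_cast at hk hl
      refine ⟨?_, ?_, ?_, ?_⟩ <;> linarith
  · exfalso
    have h1 := L3aux R R.ac hV hVu hs0 hrs hr1 hQ2' hQ2 (fun h => hne ⟨h.1.symm, h.2.symm⟩)
      (fun u a b => by
        obtain ⟨i, hi⟩ := hQu2 u a b
        exact ⟨i, hi.symm⟩)
    unfold patd at h1
    cases dV <;> simp at h1

end Vale.Agent.P032.Words.Dir
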